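import Vale.Agent.P088.R2.H710.Free.Model
import Vale.Agent.P088.H332.Loc1

/-!
# P088: models without equations near an interior point
-/

open Bundle Manifold MeasureTheory Set Filter Topology
open scoped ContDiff

noncomputable section

set_option linter.all false

namespace Vale.Agent.P088.R2.H710.Free

open Vale.Agent.P088 Vale.Agent.P088.EYM

universe u

section Man

variable {n N : ℕ} [NeZero n] {M : Type u} [TopologicalSpace M]
  [ChartedSpace (EuclideanHalfSpace n) M] [IsManifold (𝓡∂ n) ∞ M]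
  [T2Space M] [CompactSpace M] [ConnectedSpace M] [MeasurableSpace M] [BorelSpace M]

/-- The model near an interior point of `W`. -/
theorem modelAt (hHarm : CHarm_statement.{u})
    (hU : CUniq_statement.{u}) (hLoc : CLoc_statement.{u}) (hN : 0 < N) (P : One n N M)
    (hb : ((𝓡∂ n).boundary M).Nonempty) (j0 : Fin N)
    {x : M} (hx : x ∈ Mi n M) (s : Fin N → M → Fib N) (t : Fin n → M → Fib N)
    (hs : ∀ j, ∃ f, P.Harm f (s j)) (ht : ∀ a, ∃ f, P.Harm f (t a))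
    (hu : IsUnit (frm n x s (xc n x x)))
    (hd : (Jac (Xco j0 (frm n x s) (fun a => lu (𝓡∂ n) x (t a))) (xc n x x)).det ≠ 0)
    (hpos : 0 < Xco j0 (frm n x s) (fun a => lu (𝓡∂ n) x (t a)) (xc n x x) 0) :
    ∃ (Y : E n → E n) (W : Model n N) (r₀ : ℝ), 0 < r₀ ∧ ∀ r, 0 < r → r ≤ r₀ →
      ∃ D₁ ⊆ tg n x, RelOpen D₁ ∧ xc n x x ∈ D₁ ∧
        IsPull (P.loc x) W.toLD D₁
          (HB (Xco j0 (frm n x s) (fun a => lu (𝓡∂ n) x (t a)) (xc n x x)) r)
          (Xco j0 (frm n x s) (fun a => lu (𝓡∂ n) x (t a))) Y (frm n x s) ∧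
        IsMod j0 W (HB (Xco j0 (frm n x s) (fun a => lu (𝓡∂ n) x (t a)) (xc n x x)) r) ∧
        ∀ y ∈ D₁, ∀ a, lu (𝓡∂ n) x (t a) y =
          frm n x s y (W.c a (Xco j0 (frm n x s) (fun a => lu (𝓡∂ n) x (t a)) y)) := by
  have hss : ∀ j, SmS n (s j) := fun j => (hs j).choose_spec.smooth
  have g1 : ∀ v, Sol (P.loc x) (tg n x) (fun y => frm n x s y v) := by
    intro v
    obtain ⟨f, hf⟩ := cClosed_harm_sum hU hN P hb s hs v
    have h1 := hHarm n N M P f _ hf x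
    have h2 : (fun y => frm n x s y v) = lu (𝓡∂ n) x (∑ j, v j • s j) :=
      funext fun y => cClosed_frm_apply x s y v
    rw [h2]
    exact h1
  have g2 : ∀ a, Sol (P.loc x) (tg n x) (lu (𝓡∂ n) x (t a)) := by
    intro a
    obtain ⟨f, hf⟩ := ht a
    exact hHarm n N M P f _ hf x
  have g3 : xc n x x ∈ tg n x := (xc n x).map_source (mem_extChartAt_source x)
  obtain ⟨Y, W, r₀, hr₀, h⟩ := fModel n N (P.loc x) (tg n x) j0
    ((hLoc n N M).1 x) ((hLoc n N M).2.1 P x)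
    (frm n x s) (fun a => lu (𝓡∂ n) x (t a)) (cClosed_frm_smooth hLoc x s hss) g1 g2
    (xc n x x) g3 hu hd (Or.inl ⟨cClosed_pos hLoc hx, hpos⟩)
  refine ⟨Y, W, r₀, hr₀, fun r hr hrr => ?_⟩
  obtain ⟨D₁, hD, hD'⟩ := h r hr hrr
  exact ⟨D₁, hD, hD'⟩

end Man


end Vale.Agent.P088.R2.H710.Free
end
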