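import Vale.Agent.P088.TM.Asm

/-!
# P088: equality of the models near a matched point, with the point in the set
-/

open Bundle Manifold MeasureTheory Set Filter Topology
open scoped ContDiff

noncomputable section

set_option linter.all false

namespace Vale.Agent.P088.R2.H710.Free

open Vale.Agent.P088 Vale.Agent.P088.EYM
open Vale.Agent.P088.TM hiding fUniq fForm fInt fPoinc fRunge fConn fLoc

universe u

theorem modEq (n N : ℕ) [NeZero n] (M₁ M₂ : Type u)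
    [TopologicalSpace M₁] [ChartedSpace (EuclideanHalfSpace n) M₁]
    [IsManifold (𝓡∂ n) ∞ M₁] [T2Space M₁] [CompactSpace M₁] [ConnectedSpace M₁] [MeasurableSpace M₁]
    [BorelSpace M₁] [TopologicalSpace M₂] [ChartedSpace (EuclideanHalfSpace n) M₂]
    [IsManifold (𝓡∂ n) ∞ M₂] [T2Space M₂] [CompactSpace M₂] [ConnectedSpace M₂] [MeasurableSpace M₂]
    [BorelSpace M₂] (P : One n N M₁) (Q : One n N M₂) (G : TM.Gl M₁ M₂) (j0 : Fin N)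
    (s : Fin N → (M₁ → Fib N) × (M₂ → Fib N)) (t : Fin n → (M₁ → Fib N) × (M₂ → Fib N))
    (q₁ : M₁) (q₂ : M₂) (z : E n) (r : ℝ) (W₁ W₂ : Model n N) (D₁ D₂ : Set (E n))
    (Y₁ Y₂ : E n → E n) (hs : ∀ j, s j ∈ TM.PP P Q G) (ht : ∀ a, t a ∈ TM.PP P Q G)
    (hD₁ : RelOpen D₁) (hD₂ : RelOpen D₂) (hD₁t : D₁ ⊆ tg n q₁) (hD₂t : D₂ ⊆ tg n q₂)
    (hp₁ : IsPull (P.loc q₁) W₁.toLD D₁ (HB z r)
      (Xco j0 (frm n q₁ fun j => (s j).1) (fun a => lu (𝓡∂ n) q₁ (t a).1)) Y₁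
      (frm n q₁ fun j => (s j).1))
    (hp₂ : IsPull (Q.loc q₂) W₂.toLD D₂ (HB z r)
      (Xco j0 (frm n q₂ fun j => (s j).2) (fun a => lu (𝓡∂ n) q₂ (t a).2)) Y₂
      (frm n q₂ fun j => (s j).2))
    (hc₁ : ∀ x ∈ D₁, ∀ a, lu (𝓡∂ n) q₁ (t a).1 x = frm n q₁ (fun j => (s j).1) x (W₁.c a
      (Xco j0 (frm n q₁ fun j => (s j).1) (fun a => lu (𝓡∂ n) q₁ (t a).1) x)))
    (hc₂ : ∀ x ∈ D₂, ∀ a, lu (𝓡∂ n) q₂ (t a).2 x = frm n q₂ (fun j => (s j).2) x (W₂.c a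
      (Xco j0 (frm n q₂ fun j => (s j).2) (fun a => lu (𝓡∂ n) q₂ (t a).2) x)))
    (O : Set M₂) (φ : M₂ → M₁) (V : M₂ → EndF N) (hM : TM.LMatch P Q G O φ V) (x : M₂) (hxO : x ∈ O)
    (hxs : x ∈ (xc n q₂).source) (hxD₂ : xc n q₂ x ∈ D₂) (hφs : φ x ∈ (xc n q₁).source)
    (hφD₁ : xc n q₁ (φ x) ∈ D₁) :
    ∃ U : Set (E n), IsOpen U ∧ U ⊆ HB z r ∧
      Xco j0 (frm n q₂ fun j => (s j).2) (fun a => lu (𝓡∂ n) q₂ (t a).2) (xc n q₂ x) ∈ U ∧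
      EqOnM W₁ W₂ U ∧
      (∀ u ∈ TM.PP P Q G, ∀ y ∈ U,
        Ring.inverse (frm n q₁ (fun j => (s j).1) (Y₁ y)) (lu (𝓡∂ n) q₁ u.1 (Y₁ y)) =
        Ring.inverse (frm n q₂ (fun j => (s j).2) (Y₂ y)) (lu (𝓡∂ n) q₂ u.2 (Y₂ y))) ∧
      ∀ y ∈ U, (xc n q₂).symm (Y₂ y) ∈ O ∧ φ ((xc n q₂).symm (Y₂ y)) ∈ (xc n q₁).source ∧
        xc n q₁ (φ ((xc n q₂).symm (Y₂ y))) = Y₁ y := by
  obtain ⟨ρ, hρ, hsub, hmap, hτs, hvs, hg, hB⟩ := TM.fUnm n N M₁ M₂ P Q G O φ V hM q₁ q₂ x hxO hxs hφs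
  set S₁ : E n → EndF N := frm n q₁ fun j => (s j).1 with hS₁
  set S₂ : E n → EndF N := frm n q₂ fun j => (s j).2 with hS₂
  set X₁ : E n → E n := Xco j0 S₁ (fun a => lu (𝓡∂ n) q₁ (t a).1) with hX₁
  set X₂ : E n → E n := Xco j0 S₂ (fun a => lu (𝓡∂ n) q₂ (t a).2) with hX₂
  set τ : E n → E n := fun y => xc n q₁ (φ ((xc n q₂).symm y)) with hτ
  set v : E n → EndF N := fun y => V ((xc n q₂).symm y) with hv
  have hHB : RelOpen (HB z r) := ⟨Metric.ball z r, Metric.isOpen_ball, rfl⟩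
  set B : Set (E n) := Metric.ball (xc n q₂ x) ρ with hBdef
  have hBo : IsOpen B := Metric.isOpen_ball
  -- sections in charts
  have hlu : ∀ u ∈ TM.PP P Q G, ∀ y ∈ B, lu (𝓡∂ n) q₂ u.2 y = v y (lu (𝓡∂ n) q₁ u.1 (τ y)) := by
    intro u hu y hy
    obtain ⟨h1, h2, -⟩ := hmap y hy
    show u.2 ((xc n q₂).symm y) = V ((xc n q₂).symm y) (u.1 ((xc n q₁).symm (τ y)))
    rw [hM.sol u hu _ h1]
    rw [show (xc n q₁).symm (τ y) = φ ((xc n q₂).symm y) from (xc n q₁).left_inv h2]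
  have hSS : ∀ y ∈ B, S₂ y = v y * S₁ (τ y) := by
    intro y hy
    refine endF_ext fun i => ?_
    show fr (fun j => (s j).2) ((xc n q₂).symm y) (eN N i) =
      v y (fr (fun j => (s j).1) ((xc n q₁).symm (τ y)) (eN N i))
    rw [fr_eN, fr_eN]
    exact hlu (s i) (hs i) y hy
  -- the open set in the chart at q₂
  obtain ⟨O₂, hO₂, hD₂e⟩ := hD₂
  obtain ⟨O₁, hO₁, hD₁e⟩ := hD₁
  have hD₂ : RelOpen D₂ := ⟨O₂, hO₂, hD₂e⟩
  have hD₁ : RelOpen D₁ := ⟨O₁, hO₁, hD₁e⟩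
  set Nn : Set (E n) := (B ∩ τ ⁻¹' O₁) ∩ O₂ with hNn
  have hNo : IsOpen Nn := (hτs.continuousOn.isOpen_inter_preimage hBo hO₁).inter hO₂
  have hNB : Nn ⊆ B := fun y hy => hy.1.1
  have hNpos : ∀ y ∈ Nn, 0 < y 0 := fun y hy => (hsub (hNB hy)).2
  have hND₂ : Nn ⊆ D₂ := by
    intro y hy
    rw [hD₂e]
    exact ⟨hy.2, (hNpos y hy).le⟩
  have hNτ : ∀ y ∈ Nn, τ y ∈ D₁ := by
    intro y hy
    rw [hD₁e]
    exact ⟨hy.1.2, (hmap y (hNB hy)).2.2.le⟩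
  have hxB : xc n q₂ x ∈ B := Metric.mem_ball_self hρ
  have hxN : xc n q₂ x ∈ Nn := by
    refine ⟨⟨hxB, ?_⟩, ?_⟩
    · show τ (xc n q₂ x) ∈ O₁
      have : τ (xc n q₂ x) = xc n q₁ (φ x) := by
        show xc n q₁ (φ ((xc n q₂).symm (xc n q₂ x))) = _
        rw [(xc n q₂).left_inv hxs]
      rw [this]
      rw [hD₁e] at hφD₁
      exact hφD₁.1
    · rw [hD₂e] at hxD₂
      exact hxD₂.1
  have hNrel : RelOpen Nn := ⟨Nn, hNo, (inter_eq_left.mpr fun y hy => (hNpos y hy).le).symm⟩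
  -- the solution coordinates agree
  have hX : ∀ y ∈ Nn, X₁ (τ y) = X₂ y := by
    intro y hy
    have h1 := hp₁.unit _ (hNτ y hy)
    have h2 := hp₂.unit _ (hND₂ hy)
    ext a
    show ((Ring.inverse (S₁ (τ y))) (lu (𝓡∂ n) q₁ (t a).1 (τ y)) j0).re =
      ((Ring.inverse (S₂ y)) (lu (𝓡∂ n) q₂ (t a).2 y) j0).re
    rw [hlu (t a) (ht a) y (hNB hy), cModEq_cancel (hSS y (hNB hy)) h1 h2]
  -- the open set in the coordinates
  set Hp : Set (E n) := Metric.ball z r ∩ {y | 0 < y 0} with hHp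
  have hHpo : IsOpen Hp :=
    Metric.isOpen_ball.inter (isOpen_lt continuous_const (continuous_coord 0))
  have hHpHB : Hp ⊆ HB z r := fun y hy => ⟨hy.1, le_of_lt (show 0 < y 0 from hy.2)⟩
  set U : Set (E n) := Hp ∩ Y₂ ⁻¹' Nn with hU
  have hUo : IsOpen U :=
    (hp₂.diffeo.smY.continuousOn.mono hHpHB).isOpen_inter_preimage hHpo hNo
  have hUHB : U ⊆ HB z r := fun y hy => hHpHB hy.1
  have hUrel : RelOpen U :=
    ⟨U, hUo, (inter_eq_left.mpr (fun y (hy : y ∈ U) => (hUHB hy).2)).symm⟩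
  have hXU : MapsTo X₂ Nn U := by
    intro y hy
    have h1 := hp₂.diffeo.mapsX (hND₂ hy)
    refine ⟨⟨h1.1, bIntr n D₂ (HB z r) X₂ Y₂ hD₂ hHB hp₂.diffeo y (hND₂ hy) (hNpos y hy)⟩, ?_⟩
    show Y₂ (X₂ y) ∈ Nn
    rw [hp₂.diffeo.inv1 y (hND₂ hy)]
    exact hy
  have hYN : MapsTo Y₂ U Nn := fun y hy => hy.2
  -- the set in the chart at q₁
  obtain ⟨O₃, hO₃, hO₃e⟩ := (continuousOn_iff'.1 hp₁.diffeo.smX.continuousOn) U hUo
  set Dm : Set (E n) := X₁ ⁻¹' U ∩ D₁ with hDm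
  have hDmrel : RelOpen Dm := by
    rw [hO₃e]
    exact hD₁.univ_inter hO₃
  have hXm : MapsTo X₁ Dm U := fun y hy => hy.1
  have hYm : MapsTo Y₁ U Dm := by
    intro y hy
    refine ⟨?_, hp₁.diffeo.mapsY (hUHB hy)⟩
    show X₁ (Y₁ y) ∈ U
    rw [hp₁.diffeo.inv2 y (hUHB hy)]
    exact hy
  have k1 : IsPull (P.loc q₁) W₁.toLD Dm U X₁ Y₁ S₁ :=
    cModEq_restrict hp₁ inter_subset_right hUHB hXm hYm
  have k2 : IsPull (Q.loc q₂) W₂.toLD Nn U X₂ Y₂ S₂ :=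
    cModEq_restrict hp₂ hND₂ hUHB hXU hYN
  have hYτ : ∀ y ∈ U, τ (Y₂ y) = Y₁ y := by
    intro y hy
    have h1 := hX _ (hYN hy)
    rw [hp₂.diffeo.inv2 y (hUHB hy)] at h1
    have h2 := congrArg Y₁ h1
    rwa [hp₁.diffeo.inv1 _ (hNτ _ (hYN hy))] at h2
  have k3d : IsDiffeo Nn Dm τ (fun y => Y₂ (X₁ y)) := by
    refine ⟨fun y hy => ?_, fun y hy => hYN (hXm hy), fun y hy => ?_, fun y hy => ?_,
      hτs.mono hNB, k2.diffeo.smY.comp k1.diffeo.smX hXm⟩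
    · refine ⟨?_, hNτ y hy⟩
      show X₁ (τ y) ∈ U
      rw [hX y hy]
      exact hXU hy
    · show Y₂ (X₁ (τ y)) = y
      rw [hX y hy, hp₂.diffeo.inv1 y (hND₂ hy)]
    · show τ (Y₂ (X₁ y)) = y
      rw [hYτ _ (hXm hy), hp₁.diffeo.inv1 y hy.2]
  have k3 : IsPull (Q.loc q₂) (P.loc q₁) Nn Dm τ (fun y => Y₂ (X₁ y)) v := by
    refine ⟨k3d, hvs.mono hNB, fun y hy => ?_, fun y hy => hg y (hNB hy),
      fun y hy => hB y (hNB hy), fun y hy => ?_⟩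
    · have h1 := hM.unit _ (hmap y (hNB hy)).1
      exact (Unitary.toUnits ⟨_, h1⟩).isUnit
    · have h1 := hM.unit _ (hmap y (hNB hy)).1
      show ContinuousLinearMap.adjoint (v y) * 1 * v y = 1
      rw [mul_one]
      exact (Unitary.mem_iff.1 h1).1
  have k4 := bComp n N _ _ _ Nn Dm U τ (fun y => Y₂ (X₁ y)) X₁ Y₁ v S₁ hNrel hDmrel hUrel k3 k1
  have k5 := bSymm n N _ _ Nn U _ _ _ hNrel hUrel k4
  have k6 := bSymm n N _ _ Nn U _ _ _ hNrel hUrel k2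
  have hYY : EqOn ((fun y => Y₂ (X₁ y)) ∘ Y₁) Y₂ U := by
    intro y hy
    show Y₂ (X₁ (Y₁ y)) = Y₂ y
    rw [hp₁.diffeo.inv2 y (hUHB hy)]
  have key := cModEq_unique hUrel k5 k6 hYY (fun y hy => by
    show Ring.inverse (v (((fun y => Y₂ (X₁ y)) ∘ Y₁) y) * S₁ (τ (((fun y => Y₂ (X₁ y)) ∘ Y₁) y))) =
      Ring.inverse (S₂ (Y₂ y))
    rw [hYY hy, hSS _ (hNB (hYN hy))])
  refine ⟨U, hUo, hUHB, hXU hxN, ⟨fun y hy => (key y hy).1,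
    fun y hy => (key y hy).2.1, fun y hy => (key y hy).2.2, fun y hy a => ?_⟩, fun u hu y hy => ?_,
    fun y hy => ⟨(hmap _ (hNB (hYN hy))).1, (hmap _ (hNB (hYN hy))).2.1, hYτ y hy⟩⟩
  · have hyN := hYN hy
    have h1 := hc₁ _ (hNτ _ hyN) a
    have h2 := hc₂ _ (hND₂ hyN) a
    have u1 := hp₁.unit _ (hNτ _ hyN)
    have u2 := hp₂.unit _ (hND₂ hyN)
    have e1 : Ring.inverse (S₂ (Y₂ y)) (lu (𝓡∂ n) q₂ (t a).2 (Y₂ y)) =
        Ring.inverse (S₁ (τ (Y₂ y))) (lu (𝓡∂ n) q₁ (t a).1 (τ (Y₂ y))) := by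
      rw [hlu (t a) (ht a) _ (hNB hyN), cModEq_cancel (hSS _ (hNB hyN)) u1 u2]
    rw [h1, h2, hX _ hyN, hp₂.diffeo.inv2 y (hUHB hy)] at e1
    have e2 : ∀ (S : EndF N), IsUnit S → ∀ w : Fib N, Ring.inverse S (S w) = w := by
      intro S hS w
      show (Ring.inverse S * S) w = w
      rw [Ring.inverse_mul_cancel _ hS]
      rfl
    rw [e2 _ u2, e2 _ u1] at e1
    exact e1.symm
  · have hyN := hYN hy
    have u1 := hp₁.unit _ (hNτ _ hyN)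
    have u2 := hp₂.unit _ (hND₂ hyN)
    rw [hlu u hu _ (hNB hyN), cModEq_cancel (hSS _ (hNB hyN)) u1 u2, hYτ y hy]

end Vale.Agent.P088.R2.H710.Free
end
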