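import Vale.Agent.P088.Q.Cls

/-!
# P088: models without equations: existence near a point
-/

open Bundle Manifold MeasureTheory Set Filter Topology
open scoped ContDiff

noncomputable section

set_option linter.all false

namespace Vale.Agent.P088.R2.H710.Free

open Vale.Agent.P088 Vale.Agent.P088.EYM

export Vale.Agent.P088.EYM.Q (IsMod)

universe u

/-- Existence of a model near `z` in solution coordinates, without equations. -/
def FModel_statement : Prop :=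
  ∀ (n N : ℕ) [NeZero n] (L : LD n N) (D : Set (E n)) (j0 : Fin N), RelOpen D →
    L.Ok D → ∀ (S : E n → EndF N) (T : Fin n → E n → Fib N),
    ContDiffOn ℝ ∞ S D → (∀ v, Sol L D (fun x => S x v)) → (∀ a, Sol L D (T a)) →
    ∀ z ∈ D, IsUnit (S z) → (Jac (Xco j0 S T) z).det ≠ 0 →
    ((0 < z 0 ∧ 0 < Xco j0 S T z 0) ∨
      (z 0 = 0 ∧ 0 < EYM.pd 0 (fun x => Xco j0 S T x 0) z ∧
        ∃ r > 0, ∀ x ∈ HB z r, x 0 = 0 → Xco j0 S T x 0 = 0)) →
    ∃ (Y : E n → E n) (W : Model n N) (r₀ : ℝ), 0 < r₀ ∧ ∀ r, 0 < r → r ≤ r₀ →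
      ∃ D₁ ⊆ D, RelOpen D₁ ∧ z ∈ D₁ ∧
        IsPull L W.toLD D₁ (HB (Xco j0 S T z) r) (Xco j0 S T) Y S ∧
        IsMod j0 W (HB (Xco j0 S T z) r) ∧
        ∀ x ∈ D₁, ∀ a, T a x = S x (W.c a (Xco j0 S T x))

theorem fModel : FModel_statement := by
  intro n N _ L D j0 hD hL S T hS hSf hT z hz hzu hdet hcase
  -- the set where the frame is invertible
  set D0 : Set (E n) := {x | x ∈ D ∧ S x ∈ {t : EndF N | IsUnit t}} with hD0
  have hD0o : RelOpen D0 := bmodel_relOpen_preimage hD hS.continuousOn Units.isOpen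
  have hD0s : D0 ⊆ D := fun x hx => hx.1
  have hu0 : ∀ x ∈ D0, IsUnit (S x) := fun x hx => hx.2
  have hX : ContDiffOn ℝ ∞ (Xco j0 S T) D0 :=
    bmodel_Xco_smooth j0 (hS.mono hD0s) (fun a => (hT a).1.mono hD0s) hu0
  obtain ⟨Y, r₀, hr₀, hY⟩ := half_ift hD0o hX (z := z) ⟨hz, hzu⟩ hdet hcase
  obtain ⟨D1, hD1s, hD1o, hzD1, hdiff⟩ := hY r₀ hr₀ le_rfl
  have hD1D : D1 ⊆ D := hD1s.trans hD0s
  have hu1 : ∀ x ∈ D1, IsUnit (S x) := fun x hx => hu0 x (hD1s hx)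
  have hS1 : ContDiffOn ℝ ∞ S D1 := hS.mono hD1D
  have hL1 : L.Ok D1 := bmodel_ok_mono hL hD1D
  have hHB := bmodel_HB_relOpen (Xco j0 S T z) r₀
  obtain ⟨L', hL', hP, -⟩ := Vale.Agent.P088.EYM.Q.bPush n N L D1 _ (Xco j0 S T) Y S hD1o hHB hL1 hdiff hS1 hu1
  set W : Model n N := { toLD := L', c := fun a y => Ring.inverse (S (Y y)) (T a (Y y)) } with hW
  have hSY : ContDiffOn ℝ ∞ (fun y => S (Y y)) (HB (Xco j0 S T z) r₀) :=
    hS1.comp hdiff.smY hdiff.mapsY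
  have hcs : ∀ a, ContDiffOn ℝ ∞ (W.c a) (HB (Xco j0 S T z) r₀) := fun a =>
    smooth_eval (smooth_ringInverse hSY fun y hy => hu1 _ (hdiff.mapsY hy))
      (((hT a).1.mono hD1D).comp hdiff.smY hdiff.mapsY)
  have hTW : ∀ x ∈ D1, ∀ a, T a x = S x (W.c a (Xco j0 S T x)) := by
    intro x hx a
    simp only [hW]
    rw [hdiff.inv1 x hx]
    have h1 : S x * Ring.inverse (S x) = 1 := Ring.mul_inverse_cancel _ (hu1 x hx)
    have h2 : (S x * Ring.inverse (S x)) (T a x) = T a x := by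
      rw [h1]
      rfl
    exact h2.symm
  have hframe : ∀ v : Fib N, Sol L' (HB (Xco j0 S T z) r₀) (fun _ => v) := fun v =>
    bSol n N L L' D1 _ (Xco j0 S T) Y S hD1o hHB hL1 hL' hP (fun _ => v)
      (bmodel_sol_mono (hSf v) hD1D) contDiffOn_const
  have hsol : ∀ a, Sol L' (HB (Xco j0 S T z) r₀) (W.c a) := fun a =>
    bSol n N L L' D1 _ (Xco j0 S T) Y S hD1o hHB hL1 hL' hP (W.c a)
      (bmodel_sol_congr hD1o (bmodel_sol_mono (hT a) hD1D) fun x hx => (hTW x hx a).symm)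
      (hcs a)
  refine ⟨Y, W, r₀, hr₀, fun r hr hrr => ?_⟩
  have hsub : HB (Xco j0 S T z) r ⊆ HB (Xco j0 S T z) r₀ := fun y hy =>
    ⟨Metric.ball_subset_ball hrr hy.1, hy.2⟩
  set D2 : Set (E n) := {x | x ∈ D1 ∧ Xco j0 S T x ∈ Metric.ball (Xco j0 S T z) r} with hD2
  have hD2s : D2 ⊆ D1 := fun x hx => hx.1
  have hm : MapsTo (Xco j0 S T) D2 (HB (Xco j0 S T z) r) := fun x hx =>
    ⟨hx.2, (hdiff.mapsX hx.1).2⟩
  have hm' : MapsTo Y (HB (Xco j0 S T z) r) D2 := fun y hy =>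
    ⟨hdiff.mapsY (hsub hy), by rw [hdiff.inv2 y (hsub hy)]; exact hy.1⟩
  refine ⟨D2, hD2s.trans hD1D, ?_, ?_, ?_, ?_, ?_⟩
  · exact bmodel_relOpen_preimage hD1o hdiff.smX.continuousOn Metric.isOpen_ball
  · exact ⟨hzD1, Metric.mem_ball_self hr⟩
  · exact bmodel_pull_restrict hP hD2s hsub hm hm'
  · refine ⟨bmodel_ok_mono hL' hsub, fun v => bmodel_sol_mono (hframe v) hsub,
      fun a => bmodel_sol_mono (hsol a) hsub, fun a y hy => ?_⟩
    have h1 := hdiff.inv2 y (hsub hy)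
    have h2 := congrArg (fun w : E n => w a) h1
    exact h2
  · exact fun x hx a => hTW x (hD2s hx) a


end Vale.Agent.P088.R2.H710.Free
end
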